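import Vale.Agent.P065.UB.Defs

/-!
# P065: superadditivity of the number of `k`-edges (row A of helper841, by helper576)
-/

set_option autoImplicit false

namespace Vale.Agent.P065.R2.H841.H576

open Finset Filter Vale.Agent.P065.UB

theorem mem_Ed' {P : Finset Pt} {k : ℕ} {e : Pt × Pt} : e ∈ Ed P k ↔ e.1 ∈ P ∧ e.2 ∈ P ∧
    e.1.1 < e.2.1 ∧ #{v ∈ P | ht (sl e.1 e.2) v < ht (sl e.1 e.2) e.1} = k := by
  unfold Ed
  rw [mem_filter, mem_product, and_assoc]

/-- two points of the same height `m` have slope `m` -/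
theorem sl_of_ht {p q : Pt} {m : ℝ} (hpq : p.1 ≠ q.1) (h : ht m p = ht m q) : sl p q = m := by
  unfold ht at h
  unfold sl
  have h1 : q.1 - p.1 ≠ 0 := sub_ne_zero.2 hpq.symm
  rw [div_eq_iff h1]
  linarith

/-- Two good sets, each above all lines of the other one. -/
theorem union_good {A B : Finset Pt} (hA : Good A) (hB : Good B)
    (hx : ∀ a ∈ A, ∀ b ∈ B, a.1 ≠ b.1)
    (h1 : ∀ p ∈ A, ∀ q ∈ A, p.1 ≠ q.1 → ∀ b ∈ B, ht (sl p q) p < ht (sl p q) b)
    (h2 : ∀ p ∈ B, ∀ q ∈ B, p.1 ≠ q.1 → ∀ a ∈ A, ht (sl p q) p < ht (sl p q) a) :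
    Good (A ∪ B) := by
  have k1 : ∀ m : ℝ, ∀ p ∈ A, ∀ q ∈ A, p ≠ q → ∀ b ∈ B, ht m p = ht m q → ht m p = ht m b →
      False := by
    intro m p hp q hq hpq b hb e1 e2
    have hne : p.1 ≠ q.1 := fun h => hpq (hA.xinj p hp q hq h)
    have h3 := h1 p hp q hq hne b hb
    rw [sl_of_ht hne e1, e2] at h3
    exact lt_irrefl _ h3
  have k2 : ∀ m : ℝ, ∀ p ∈ B, ∀ q ∈ B, p ≠ q → ∀ b ∈ A, ht m p = ht m q → ht m p = ht m b →
      False := by
    intro m p hp q hq hpq b hb e1 e2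
    have hne : p.1 ≠ q.1 := fun h => hpq (hB.xinj p hp q hq h)
    have h3 := h2 p hp q hq hne b hb
    rw [sl_of_ht hne e1, e2] at h3
    exact lt_irrefl _ h3
  refine ⟨?_, ?_⟩
  · intro p hp q hq h
    rcases mem_union.1 hp with hp | hp <;> rcases mem_union.1 hq with hq | hq
    · exact hA.xinj p hp q hq h
    · exact absurd h (hx p hp q hq)
    · exact absurd h.symm (hx q hq p hp)
    · exact hB.xinj p hp q hq h
  · intro m a ha b hb c hc hab hac hbc e1 e2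
    rcases mem_union.1 ha with ha | ha <;> rcases mem_union.1 hb with hb | hb <;>
      rcases mem_union.1 hc with hc | hc
    · exact hA.gen m a ha b hb c hc hab hac hbc e1 e2
    · exact k1 m a ha b hb hab c hc e1 e2
    · exact k1 m a ha c hc hac b hb e2 e1
    · exact k2 m b hb c hc hbc a ha (e1.symm.trans e2) e1.symm
    · exact k1 m b hb c hc hbc a ha (e1.symm.trans e2) e1.symm
    · exact k2 m a ha c hc hac b hb e2 e1
    · exact k2 m a ha b hb hab c hc e1 e2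
    · exact hB.gen m a ha b hb c hc hab hac hbc e1 e2

theorem Ed_subset_union {A B : Finset Pt} (k : ℕ)
    (h1 : ∀ p ∈ A, ∀ q ∈ A, p.1 ≠ q.1 → ∀ b ∈ B, ht (sl p q) p < ht (sl p q) b)
    {C : Finset Pt} (hC : ∀ x, x ∈ C ↔ x ∈ A ∨ x ∈ B) : Ed A k ⊆ Ed C k := by
  intro e he
  obtain ⟨a1, a2, a3, a4⟩ := mem_Ed'.1 he
  refine mem_Ed'.2 ⟨(hC _).2 (Or.inl a1), (hC _).2 (Or.inl a2), a3, ?_⟩
  rw [← a4]
  congr 1
  ext v
  simp only [mem_filter, hC]
  constructor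
  · rintro ⟨hv | hv, h⟩
    · exact ⟨hv, h⟩
    · exact absurd h (not_lt.2 (h1 _ a1 _ a2 a3.ne v hv).le)
  · rintro ⟨hv, h⟩
    exact ⟨Or.inl hv, h⟩

/-- shift by `t` and shear by `s` about the abscissa `x₀` -/
def psi (t s x₀ : ℝ) : Pt ↪ Pt where
  toFun p := (p.1 + t, p.2 + s * (p.1 + t - x₀))
  inj' := by
    intro p q h
    have h1 : p.1 + t = q.1 + t := congrArg Prod.fst h
    have h2 : p.2 + s * (p.1 + t - x₀) = q.2 + s * (q.1 + t - x₀) := congrArg Prod.snd h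
    have h3 : p.1 = q.1 := by linarith
    rw [h3] at h2
    exact Prod.ext h3 (by linarith)

theorem psi_fst (t s x₀ : ℝ) (p : Pt) : (psi t s x₀ p).1 = p.1 + t := rfl

theorem ht_psi (t s x₀ m : ℝ) (p : Pt) :
    ht (m + s) (psi t s x₀ p) = ht m p - m * t - s * x₀ := by
  show (p.2 + s * (p.1 + t - x₀)) - (m + s) * (p.1 + t) = (p.2 - m * p.1) - m * t - s * x₀
  ring

theorem sl_psi (t s x₀ : ℝ) {p q : Pt} (hpq : p.1 ≠ q.1) :
    sl (psi t s x₀ p) (psi t s x₀ q) = sl p q + s := by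
  have h1 : q.1 - p.1 ≠ 0 := sub_ne_zero.2 hpq.symm
  show ((q.2 + s * (q.1 + t - x₀)) - (p.2 + s * (p.1 + t - x₀))) / ((q.1 + t) - (p.1 + t)) =
    (q.2 - p.2) / (q.1 - p.1) + s
  have h2 : (q.1 + t) - (p.1 + t) = q.1 - p.1 := by ring
  rw [h2]
  field_simp
  ring

theorem good_psi (t s x₀ : ℝ) {B : Finset Pt} (hB : Good B) : Good (B.map (psi t s x₀)) := by
  refine ⟨?_, ?_⟩
  · intro p hp q hq h
    obtain ⟨p, hp', rfl⟩ := mem_map.1 hp
    obtain ⟨q, hq', rfl⟩ := mem_map.1 hq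
    rw [psi_fst, psi_fst] at h
    rw [hB.xinj p hp' q hq' (by linarith)]
  · intro m a ha b hb c hc hab hac hbc h1 h2
    obtain ⟨a, ha', rfl⟩ := mem_map.1 ha
    obtain ⟨b, hb', rfl⟩ := mem_map.1 hb
    obtain ⟨c, hc', rfl⟩ := mem_map.1 hc
    obtain ⟨m, rfl⟩ : ∃ m', m = m' + s := ⟨m - s, by ring⟩
    rw [ht_psi, ht_psi] at h1 h2
    exact hB.gen m a ha' b hb' c hc' (fun h => hab (by rw [h])) (fun h => hac (by rw [h]))
      (fun h => hbc (by rw [h])) (by linarith) (by linarith)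

theorem card_Ed_psi (t s x₀ : ℝ) (B : Finset Pt) (k : ℕ) :
    #(Ed B k) ≤ #(Ed (B.map (psi t s x₀)) k) := by
  classical
  refine card_le_card_of_injOn (fun e => (psi t s x₀ e.1, psi t s x₀ e.2)) ?_ ?_
  · intro e he
    obtain ⟨a1, a2, a3, a4⟩ := mem_Ed'.1 (mem_coe.1 he)
    refine mem_coe.2 (mem_Ed'.2 ⟨mem_map_of_mem _ a1, mem_map_of_mem _ a2, ?_, ?_⟩)
    · show e.1.1 + t < e.2.1 + t
      linarith
    · show #{v ∈ B.map (psi t s x₀) | ht (sl (psi t s x₀ e.1) (psi t s x₀ e.2)) v <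
        ht (sl (psi t s x₀ e.1) (psi t s x₀ e.2)) (psi t s x₀ e.1)} = k
      rw [sl_psi t s x₀ a3.ne, filter_map, card_map, ← a4]
      congr 1
      ext v
      simp only [mem_filter, Function.comp_apply, ht_psi]
      constructor
      · rintro ⟨h, h'⟩
        exact ⟨h, by linarith⟩
      · rintro ⟨h, h'⟩
        exact ⟨h, by linarith⟩
  · intro e _ e' _ h
    have h1 : psi t s x₀ e.1 = psi t s x₀ e'.1 := congrArg Prod.fst h
    have h2 : psi t s x₀ e.2 = psi t s x₀ e'.2 := congrArg Prod.snd h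
    exact Prod.ext ((psi t s x₀).injective h1) ((psi t s x₀).injective h2)

theorem ev (c d : ℝ) (hd : 0 < d) : ∀ᶠ s : ℝ in atTop, c < s * d :=
  (tendsto_id.atTop_mul_const hd).eventually_gt_atTop c

/-- ROW A -/
theorem specA {A B : Finset Pt} (hA : Good A) (hB : Good B) (k : ℕ) :
    ∃ C : Finset Pt, Good C ∧ #C = #A + #B ∧ #(Ed A k) + #(Ed B k) ≤ #(Ed C k) := by
  classical
  obtain ⟨X, hX⟩ := (A.image Prod.fst).exists_le
  obtain ⟨Y, hY⟩ := (B.image fun b : Pt => -b.1).exists_le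
  have hAX : ∀ a ∈ A, a.1 ≤ X := fun a ha => hX _ (mem_image_of_mem _ ha)
  have hBY : ∀ b ∈ B, -Y ≤ b.1 := fun b hb => by
    have := hY _ (mem_image_of_mem (fun b : Pt => -b.1) hb)
    linarith
  set x₀ : ℝ := X + 1 with hx₀
  set t : ℝ := Y + x₀ + 1 with ht'
  have hev : ∀ᶠ s : ℝ in atTop,
      (∀ p ∈ A, ∀ q ∈ A, ∀ b ∈ B, ht (sl p q) p < ht (sl p q) (psi t s x₀ b)) ∧
      (∀ p ∈ B, ∀ q ∈ B, ∀ a ∈ A, ht (sl p q + s) (psi t s x₀ p) < ht (sl p q + s) a) := by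
    refine Filter.Eventually.and ?_ ?_
    · simp only [Filter.eventually_all_finset]
      intro p hp q hq b hb
      have h1 := hBY b hb
      filter_upwards [ev (ht (sl p q) p - b.2 + sl p q * (b.1 + t)) (b.1 + t - x₀)
        (by rw [ht']; linarith)] with s hs
      show _ < (b.2 + s * (b.1 + t - x₀)) - sl p q * (b.1 + t)
      linarith
    · simp only [Filter.eventually_all_finset]
      intro p hp q hq a ha
      have h1 := hAX a ha
      filter_upwards [ev (ht (sl p q) p - sl p q * t - a.2 + sl p q * a.1) (x₀ - a.1)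
        (by rw [hx₀]; linarith)] with s hs
      rw [ht_psi]
      show _ < a.2 - (sl p q + s) * a.1
      nlinarith
  obtain ⟨s, h1, h2⟩ := hev.exists
  have hx : ∀ a ∈ A, ∀ b ∈ B.map (psi t s x₀), a.1 < b.1 := by
    intro a ha b hb
    obtain ⟨b, hb', rfl⟩ := mem_map.1 hb
    have e1 := hAX a ha
    have e2 := hBY b hb'
    rw [psi_fst, ht', hx₀]
    linarith
  have g1 : ∀ p ∈ A, ∀ q ∈ A, p.1 ≠ q.1 → ∀ b ∈ B.map (psi t s x₀),
      ht (sl p q) p < ht (sl p q) b := by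
    intro p hp q hq _ b hb
    obtain ⟨b, hb', rfl⟩ := mem_map.1 hb
    exact h1 p hp q hq b hb'
  have g2 : ∀ p ∈ B.map (psi t s x₀), ∀ q ∈ B.map (psi t s x₀), p.1 ≠ q.1 → ∀ a ∈ A,
      ht (sl p q) p < ht (sl p q) a := by
    intro p hp q hq hne a ha
    obtain ⟨p, hp', rfl⟩ := mem_map.1 hp
    obtain ⟨q, hq', rfl⟩ := mem_map.1 hq
    rw [sl_psi t s x₀ (fun h => hne (by rw [psi_fst, psi_fst, h]))]
    exact h2 p hp' q hq' a ha
  have hdis : Disjoint A (B.map (psi t s x₀)) := by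
    rw [disjoint_left]
    intro a ha hb
    exact lt_irrefl _ (hx a ha a hb)
  refine ⟨A ∪ B.map (psi t s x₀), union_good hA (good_psi t s x₀ hB)
    (fun a ha b hb => (hx a ha b hb).ne) g1 g2, ?_, ?_⟩
  · rw [card_union_of_disjoint hdis, card_map]
  · have e1 : Ed A k ⊆ Ed (A ∪ B.map (psi t s x₀)) k :=
      Ed_subset_union k g1 fun x => mem_union
    have e2 : Ed (B.map (psi t s x₀)) k ⊆ Ed (A ∪ B.map (psi t s x₀)) k :=
      Ed_subset_union k g2 fun x => mem_union.trans or_comm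
    have e3 : Disjoint (Ed A k) (Ed (B.map (psi t s x₀)) k) := by
      rw [disjoint_left]
      intro e he he'
      exact disjoint_left.1 hdis (mem_Ed'.1 he).1 (mem_Ed'.1 he').1
    refine (Nat.add_le_add_left (card_Ed_psi t s x₀ B k) _).trans ?_
    rw [← card_union_of_disjoint e3]
    exact card_le_card (union_subset e1 e2)

end Vale.Agent.P065.R2.H841.H576
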