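import Vale.Agent.P065.UB.Defs

/-!
# P065: few points are low and high (row B of helper841, by helper576)
-/

set_option autoImplicit false

namespace Vale.Agent.P065.R2.H841.H576

open Finset Vale.Agent.P065.UB

/-- distinct ranks -/
theorem card_rank_le {P : Finset Pt} (f : Pt → ℝ) (hf : ∀ p ∈ P, ∀ q ∈ P, f p = f q → p = q)
    (r : ℕ) : #{p ∈ P | #{u ∈ P | f u < f p} ≤ r} ≤ r + 1 := by
  classical
  have key : ∀ p ∈ P, ∀ q ∈ P, f p < f q → #{u ∈ P | f u < f p} < #{u ∈ P | f u < f q} := by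
    intro p hp q hq h
    apply card_lt_card
    rw [ssubset_iff_of_subset]
    · exact ⟨p, mem_filter.2 ⟨hp, h⟩, fun h' => lt_irrefl _ (mem_filter.1 h').2⟩
    · intro u hu
      obtain ⟨h1, h2⟩ := mem_filter.1 hu
      exact mem_filter.2 ⟨h1, h2.trans h⟩
  have h := card_le_card_of_injOn (s := {p ∈ P | #{u ∈ P | f u < f p} ≤ r}) (t := range (r + 1))
    (fun p => #{u ∈ P | f u < f p}) ?_ ?_
  · rwa [card_range] at h
  · intro p hp
    have := (mem_filter.1 (mem_coe.1 hp)).2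
    exact mem_coe.2 (mem_range.2 (Nat.lt_succ_of_le this))
  · intro p hp q hq h
    have hp' := (mem_filter.1 (mem_coe.1 hp)).1
    have hq' := (mem_filter.1 (mem_coe.1 hq)).1
    simp only at h
    rcases lt_trichotomy (f p) (f q) with h1 | h1 | h1
    · exact absurd h (key p hp' q hq' h1).ne
    · exact hf p hp' q hq' h1
    · exact absurd h (key q hq' p hp' h1).ne'

open Classical in
/-- ROW B -/
theorem specB {P : Finset Pt} (hP : Good P) (k : ℕ) :
    #{p ∈ P | (∃ m, #{u ∈ P | ht m u < ht m p} ≤ k) ∧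
      ∃ m, #{u ∈ P | ht m p < ht m u} ≤ k} ≤ 4 * k + 3 := by
  have h1 := card_rank_le (P := P) (fun p => p.1) (fun p hp q hq h => hP.xinj p hp q hq h)
    (2 * k + 1)
  have h2 := card_rank_le (P := P) (fun p => -p.1) (fun p hp q hq h =>
    hP.xinj p hp q hq (neg_injective h)) (2 * k)
  have hsub : ({p ∈ P | (∃ m, #{u ∈ P | ht m u < ht m p} ≤ k) ∧
      ∃ m, #{u ∈ P | ht m p < ht m u} ≤ k} : Finset Pt) ⊆
      ({p ∈ P | #{u ∈ P | u.1 < p.1} ≤ 2 * k + 1} : Finset Pt) ∪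
        {p ∈ P | #{u ∈ P | -u.1 < -p.1} ≤ 2 * k} := by
    intro p hp
    obtain ⟨hpP, ⟨m₁, hm₁⟩, m₂, hm₂⟩ := mem_filter.1 hp
    rw [mem_union, mem_filter, mem_filter]
    rcases le_or_gt m₁ m₂ with hm | hm
    · refine Or.inl ⟨hpP, ?_⟩
      have hone : #{u ∈ P | u ≠ p ∧ ht m₁ u = ht m₁ p} ≤ 1 := by
        rw [card_le_one]
        intro a ha b hb
        obtain ⟨a1, a2, a3⟩ := mem_filter.1 ha
        obtain ⟨b1, b2, b3⟩ := mem_filter.1 hb
        by_contra hab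
        exact hP.gen m₁ p hpP a a1 b b1 (Ne.symm a2) (Ne.symm b2) hab a3.symm b3.symm
      have hs : ({u ∈ P | u.1 < p.1} : Finset Pt) ⊆ ({u ∈ P | ht m₁ u < ht m₁ p} : Finset Pt) ∪
          (({u ∈ P | ht m₂ p < ht m₂ u} : Finset Pt) ∪
            {u ∈ P | u ≠ p ∧ ht m₁ u = ht m₁ p}) := by
        intro u hu
        obtain ⟨u1, u2⟩ := mem_filter.1 hu
        rw [mem_union, mem_union, mem_filter, mem_filter, mem_filter]
        rcases lt_trichotomy (ht m₁ u) (ht m₁ p) with h | h | h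
        · exact Or.inl ⟨u1, h⟩
        · exact Or.inr (Or.inr ⟨u1, fun e => by rw [e] at u2; exact lt_irrefl _ u2, h⟩)
        · refine Or.inr (Or.inl ⟨u1, ?_⟩)
          unfold ht at h ⊢
          nlinarith
      have c1 := card_le_card hs
      have c2 := card_union_le ({u ∈ P | ht m₁ u < ht m₁ p} : Finset Pt)
        (({u ∈ P | ht m₂ p < ht m₂ u} : Finset Pt) ∪ {u ∈ P | u ≠ p ∧ ht m₁ u = ht m₁ p})
      have c3 := card_union_le ({u ∈ P | ht m₂ p < ht m₂ u} : Finset Pt)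
        {u ∈ P | u ≠ p ∧ ht m₁ u = ht m₁ p}
      have c4 : #({u ∈ P | ht m₁ u < ht m₁ p} : Finset Pt) ≤ k := by convert hm₁
      have c5 : #({u ∈ P | ht m₂ p < ht m₂ u} : Finset Pt) ≤ k := by convert hm₂
      omega
    · refine Or.inr ⟨hpP, ?_⟩
      have hs : ({u ∈ P | -u.1 < -p.1} : Finset Pt) ⊆
          ({u ∈ P | ht m₁ u < ht m₁ p} : Finset Pt) ∪
            ({u ∈ P | ht m₂ p < ht m₂ u} : Finset Pt) := by
        intro u hu
        obtain ⟨u1, u2⟩ := mem_filter.1 hu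
        rw [mem_union, mem_filter, mem_filter]
        rcases lt_or_ge (ht m₁ u) (ht m₁ p) with h | h
        · exact Or.inl ⟨u1, h⟩
        · refine Or.inr ⟨u1, ?_⟩
          unfold ht at h ⊢
          nlinarith
      have c1 := card_le_card hs
      have c2 := card_union_le ({u ∈ P | ht m₁ u < ht m₁ p} : Finset Pt)
        ({u ∈ P | ht m₂ p < ht m₂ u} : Finset Pt)
      have c4 : #({u ∈ P | ht m₁ u < ht m₁ p} : Finset Pt) ≤ k := by convert hm₁
      have c5 : #({u ∈ P | ht m₂ p < ht m₂ u} : Finset Pt) ≤ k := by convert hm₂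
      omega
  have c1 := card_le_card hsub
  have c2 := card_union_le ({p ∈ P | #{u ∈ P | u.1 < p.1} ≤ 2 * k + 1} : Finset Pt)
    ({p ∈ P | #{u ∈ P | -u.1 < -p.1} ≤ 2 * k} : Finset Pt)
  have h1' : #({p ∈ P | #{u ∈ P | u.1 < p.1} ≤ 2 * k + 1} : Finset Pt) ≤ 2 * k + 1 + 1 := by
    convert h1
  have h2' : #({p ∈ P | #{u ∈ P | -u.1 < -p.1} ≤ 2 * k} : Finset Pt) ≤ 2 * k + 1 := by
    convert h2
  omega

end Vale.Agent.P065.R2.H841.H576
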